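import Vale.Agent.Lib.P068.Uniform

/-!
# P068: the packing/covering conjecture for families with at most one non-uniform member

`M i` (`i : Θ`, any index type) are matroids (in the sense of Bruhn-Diestel-Kriesell-Pendavingh-
Wollan, which is Mathlib's `Matroid`) on a common, possibly infinite, ground set `E`.  If of any two
different members at least one is uniform (every subset of `E` is independent or spanning), then the
family has a packing/covering partition.
-/

namespace Vale.Agent.Results.P068.AlmostAllUniform

open Vale.Agent.Lib.P068

theorem result {α Θ : Type*} (E : Set α) (M : Θ → Matroid α) (hE : ∀ i, (M i).E = E)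
    (hU : ∀ i j, i ≠ j → IsUniform (M i) ∨ IsUniform (M j)) : HasPackingCovering E M :=
  hasPackingCovering_of_uniform E M hE hU

end Vale.Agent.Results.P068.AlmostAllUniform
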